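import Vale.Agent.P254.H325.StZ
import Vale.Agent.P254.H657.Iface

/-!
P254, equality case, block E0 (helper325): `SmallP` and `SmallZ` from `StX F` and the profile of `w`;
and the inequality `isoConst K ≤ isoConst S`.
-/

namespace Vale.Agent.P254.Z325

open MeasureTheory Matrix Filter Topology Set
open R304 Eq657
open Vale.Agent.P254.L

variable {n : ℕ}

/-! ### the inequality -/

/-- no loss for the nice measures -/
theorem niceFrL0 {F : Profile} (W : WProfile F) (hX : StX F) (n : ℕ) : X.Loss.NiceFrL 0 n := by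
  intro K hK hs hi ε m hε hm B hB c
  rw [X.Top.nice_eq_wK]
  have h : (n : ℝ) + 1 / 2 * Real.log (Fr.AF (Fr.wK K ε m) B c).det ≤ Fr.EntF (Fr.wK K ε m) B c :=
    stZ W hX n (Fr.tiltData hK hs hi hε hm) (Fr.entData hK hs hi hε hm) B hB c
  linarith

theorem niceDDL0 {F : Profile} (W : WProfile F) (hX : StX F) (n : ℕ) : X.Loss.NiceDDL 0 n :=
  (niceFrL0 W hX n).niceDDL

/-- the sharp inequality for the isotropic constant -/
theorem isoConst_le {F : Profile} (W : WProfile F) (hX : StX F) (hn : 1 ≤ n)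
    {K S : Set (Fin n → ℝ)} (hK : IsConvexBody K) (hS : IsSimplex S) :
    isoConst K ≤ isoConst S := by
  have h := X.Loss.isoConst_le_of_niceDDL hn (niceDDL0 W hX (n + 1)) hK hS
  simpa using h

/-! ### linear algebra -/

theorem cube_add (X Y : Mat n) : ((X + Y) ^ 3).trace =
    (X ^ 3).trace + 3 * (X * X * Y).trace + 3 * (X * Y * Y).trace + (Y ^ 3).trace := by
  have e : (X + Y) ^ 3 = X ^ 3 + X * X * Y + X * Y * X + Y * X * X + X * Y * Y + Y * X * Y
      + Y * Y * X + Y ^ 3 := by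
    simp only [pow_succ, pow_zero, Matrix.one_mul, Matrix.add_mul, Matrix.mul_add]
    abel
  rw [e]
  simp only [Matrix.trace_add]
  have e1 : (X * Y * X).trace = (X * X * Y).trace := by
    rw [Matrix.trace_mul_comm, Matrix.mul_assoc]
  have e2 : (Y * X * X).trace = (X * X * Y).trace := by
    rw [Matrix.mul_assoc, Matrix.trace_mul_comm]
  have e3 : (Y * X * Y).trace = (X * Y * Y).trace := by
    rw [Matrix.trace_mul_comm, ← Matrix.mul_assoc, Matrix.trace_mul_comm, ← Matrix.mul_assoc]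
  have e4 : (Y * Y * X).trace = (X * Y * Y).trace := by
    rw [Matrix.trace_mul_comm, Matrix.mul_assoc]
  rw [e1, e2, e3, e4]
  ring

/-- monotonicity of `tr ((D P)^3)` in the diagonal matrix `D` -/
theorem trace_cube_mono {d d' : Vec n} (h0 : ∀ i, 0 ≤ d i) (h : ∀ i, d i ≤ d' i) {P : Mat n}
    (hP : P.PosSemidef) :
    ((Matrix.diagonal d * P) ^ 3).trace ≤ ((Matrix.diagonal d' * P) ^ 3).trace := by
  set D : Mat n := Matrix.diagonal d with hD
  set E : Mat n := Matrix.diagonal (fun i => d' i - d i) with hE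
  have hDp : D.PosSemidef := (Matrix.posSemidef_diagonal_iff).2 h0
  have hEp : E.PosSemidef := (Matrix.posSemidef_diagonal_iff).2 fun i => sub_nonneg.2 (h i)
  have e : Matrix.diagonal d' = D + E := by
    rw [hD, hE, Matrix.diagonal_add]
    congr 1
    funext i
    simp
  have hconj : ∀ X : Mat n, X.PosSemidef → (P * X * P * X * P).PosSemidef := by
    intro X hX
    have h1 := hP.mul_mul_conjTranspose_same (P * X)
    rw [Matrix.conjTranspose_mul, hX.1.eq, hP.1.eq] at h1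
    simpa only [Matrix.mul_assoc] using h1
  rw [e, Matrix.add_mul, cube_add]
  have t1 : 0 ≤ (D * P * (D * P) * (E * P)).trace := by
    have h1 := Fr.trace_mul_nonneg (hconj D hDp) hEp
    have e1 : (D * P * (D * P) * (E * P)).trace = (P * D * P * D * P * E).trace := by
      have : D * P * (D * P) * (E * P) = (D * P * D * P * E) * P := by
        simp only [Matrix.mul_assoc]
      rw [this, Matrix.trace_mul_comm]
      simp only [Matrix.mul_assoc]
    rw [e1]
    exact h1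
  have t2 : 0 ≤ (D * P * (E * P) * (E * P)).trace := by
    have h1 := Fr.trace_mul_nonneg hDp (hconj E hEp)
    have e1 : D * P * (E * P) * (E * P) = D * (P * E * P * E * P) := by
      simp only [Matrix.mul_assoc]
    rw [e1]
    exact h1
  have t3 : 0 ≤ ((E * P) ^ 3).trace := by
    have h1 := Fr.trace_mul_nonneg hEp (hconj E hEp)
    have e1 : (E * P) ^ 3 = E * (P * E * P * E * P) := by
      simp only [pow_succ, pow_zero, Matrix.one_mul, Matrix.mul_assoc]
    rw [e1]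
    exact h1
  linarith

/-- `(P)` for `B = t • 1`, small `t`, without the spectral function -/
theorem smallP_core {F : Profile} {δ x0 t : ℝ} (hx0 : x0 < 1)
    (hp : ∀ x, 0 < x → x ≤ x0 → F.p x ^ 3 ≤ 4 * (1 - (2 - δ) * x) ^ 3) (ht : 0 < t)
    {A : Mat n} (hA : A.PosDef) {T : Ten n} (hPI : PIneq F A (t • (1 : Mat n)) T)
    (hsm : (x0 • (1 : Mat n) - t • A).PosSemidef) {P : Mat n} (hP : P.PosSemidef) :
    NN P T T ≤ 4 * (((A - ((2 - δ) * t) • (A * A)) * P) ^ 3).trace := by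
  obtain ⟨U, lam, hU1, hU2, hAU, hlam⟩ := spec_symm hA.isHermitian
  have hl0 : ∀ i, 0 < lam i := fun i => by rw [hlam]; exact hA.eigenvalues_pos i
  have hcov : Uᵀ * A * U = Matrix.diagonal lam := by
    rw [hAU]
    calc Uᵀ * (U * Matrix.diagonal lam * Uᵀ) * U
        = (Uᵀ * U) * Matrix.diagonal lam * (Uᵀ * U) := by simp only [Matrix.mul_assoc]
      _ = _ := by rw [hU1, Matrix.one_mul, Matrix.mul_one]
  have hlx : ∀ i, t * lam i ≤ x0 := by
    intro i
    have h1 := hsm.mul_mul_conjTranspose_same Uᵀ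
    rw [Matrix.conjTranspose_eq_transpose_of_trivial, Matrix.transpose_transpose] at h1
    have e : Uᵀ * (x0 • (1 : Mat n) - t • A) * U = x0 • (1 : Mat n) - t • Matrix.diagonal lam := by
      rw [Matrix.mul_sub, Matrix.sub_mul, Matrix.mul_smul, Matrix.smul_mul, Matrix.mul_one, hU1,
        Matrix.mul_smul, Matrix.smul_mul, hcov]
    rw [e] at h1
    have := h1.diag_nonneg (i := i)
    simp at this
    linarith
  have hunit : IsUnit Uᵀ := by
    refine ⟨⟨Uᵀ, U, hU1, hU2⟩, rfl⟩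
  have hP' : (Uᵀ * P * U).PosSemidef := by
    have h1 := hP.mul_mul_conjTranspose_same Uᵀ
    rwa [Matrix.conjTranspose_eq_transpose_of_trivial, Matrix.transpose_transpose] at h1
  have h1 := hPI Uᵀ lam (fun _ => t) hunit (by rw [Matrix.transpose_transpose]; exact hcov) (by
      rw [Matrix.transpose_transpose, ← Matrix.smul_one_eq_diagonal, Matrix.mul_smul,
        Matrix.mul_one, Matrix.smul_mul, hU2]) (Uᵀ * P * U) hP'
  rw [Fr.NN_frT] at h1
  have e1 : (Uᵀ)ᵀ * (Uᵀ * P * U) * Uᵀ = P := by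
    rw [Matrix.transpose_transpose]
    calc U * (Uᵀ * P * U) * Uᵀ = (U * Uᵀ) * P * (U * Uᵀ) := by simp only [Matrix.mul_assoc]
      _ = P := by rw [hU2, Matrix.one_mul, Matrix.mul_one]
  rw [e1] at h1
  -- the cube root of 4
  obtain ⟨q, hq0, hq3⟩ : ∃ q : ℝ, 0 < q ∧ q ^ 3 = 4 := by
    refine ⟨(4 : ℝ) ^ ((1 : ℝ) / 3), by positivity, ?_⟩
    rw [← Real.rpow_natCast, ← Real.rpow_mul (by norm_num)]
    norm_num
  set d' : Vec n := fun i => q * (lam i * (1 - (2 - δ) * (t * lam i))) with hd'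
  have hx : ∀ i, lam i * t ∈ Ioo (0 : ℝ) 1 := fun i =>
    ⟨mul_pos (hl0 i) ht, by have := hlx i; nlinarith⟩
  have hpos3 : ∀ i, 0 < 1 - (2 - δ) * (t * lam i) := by
    intro i
    have h2 := hp (t * lam i) (mul_pos ht (hl0 i)) (hlx i)
    have h3 := F.pos _ (hx i)
    rw [mul_comm (lam i)] at h3
    have h4 : 0 < (1 - (2 - δ) * (t * lam i)) ^ 3 := by
      have : 0 < F.p (t * lam i) ^ 3 := by positivity
      linarith
    by_contra hcon
    push Not at hcon
    have h5 : (1 - (2 - δ) * (t * lam i)) ^ 3 ≤ 0 := by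
      have := pow_nonneg (neg_nonneg.2 hcon) 3
      have e : (-(1 - (2 - δ) * (t * lam i))) ^ 3 = -(1 - (2 - δ) * (t * lam i)) ^ 3 := by ring
      linarith
    linarith
  have hmono := trace_cube_mono (d := fun i => lam i * F.p (lam i * t)) (d' := d')
    (fun i => mul_nonneg (hl0 i).le (F.pos _ (hx i)).le) (fun i => by
      have h2 := hp (t * lam i) (mul_pos ht (hl0 i)) (hlx i)
      have h3 : F.p (t * lam i) ≤ q * (1 - (2 - δ) * (t * lam i)) := by
        have h4 : 0 ≤ q * (1 - (2 - δ) * (t * lam i)) := mul_nonneg hq0.le (hpos3 i).le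
        refine le_of_pow_le_pow_left₀ (n := 3) (by norm_num) h4 ?_
        rw [mul_pow, hq3]
        exact h2
      show lam i * F.p (lam i * t) ≤ q * (lam i * (1 - (2 - δ) * (t * lam i)))
      rw [mul_comm (lam i) t]
      calc lam i * F.p (t * lam i) ≤ lam i * (q * (1 - (2 - δ) * (t * lam i))) :=
            mul_le_mul_of_nonneg_left h3 (hl0 i).le
        _ = _ := by ring) hP'
  refine h1.trans (hmono.trans (le_of_eq ?_))
  have e2 : Matrix.diagonal d' * (Uᵀ * P * U) =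
      q • (Uᵀ * ((A - ((2 - δ) * t) • (A * A)) * P) * U) := by
    have e3 : Matrix.diagonal d' = q • (Uᵀ * (A - ((2 - δ) * t) • (A * A)) * U) := by
      have e4 : Uᵀ * (A * A) * U = Matrix.diagonal lam * Matrix.diagonal lam := by
        rw [← hcov]
        calc Uᵀ * (A * A) * U = Uᵀ * A * (U * Uᵀ) * A * U := by
              rw [hU2, Matrix.mul_one]; simp only [Matrix.mul_assoc]
          _ = _ := by simp only [Matrix.mul_assoc]
      rw [Matrix.mul_sub, Matrix.sub_mul, Matrix.mul_smul, Matrix.smul_mul, hcov, e4,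
        Matrix.diagonal_mul_diagonal]
      ext i j
      simp only [hd', Matrix.smul_apply, Matrix.sub_apply, Matrix.diagonal_apply, smul_eq_mul]
      split_ifs <;> ring
    rw [e3, Matrix.smul_mul]
    congr 1
    calc Uᵀ * (A - ((2 - δ) * t) • (A * A)) * U * (Uᵀ * P * U)
        = Uᵀ * (A - ((2 - δ) * t) • (A * A)) * (U * Uᵀ) * P * U := by
          simp only [Matrix.mul_assoc]
      _ = _ := by rw [hU2, Matrix.mul_one]; simp only [Matrix.mul_assoc]
  rw [e2, smul_pow, hq3, Matrix.trace_smul, smul_eq_mul]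
  congr 1
  generalize (A - ((2 - δ) * t) • (A * A)) * P = N
  have e5 : (Uᵀ * N * U) ^ 3 = Uᵀ * N ^ 3 * U := by
    calc (Uᵀ * N * U) ^ 3 = Uᵀ * N * (U * Uᵀ) * N * (U * Uᵀ) * N * U := by
          simp only [pow_succ, pow_zero, Matrix.one_mul, Matrix.mul_assoc]
      _ = _ := by
          rw [hU2, Matrix.mul_one, Matrix.mul_one]
          simp only [pow_succ, pow_zero, Matrix.one_mul, Matrix.mul_assoc]
  rw [e5, Matrix.trace_mul_comm, ← Matrix.mul_assoc, hU2, Matrix.one_mul]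

/-- sum of the `β_i` and their size for `B = t • 1` -/
theorem frame_facts {t x0 : ℝ} (ht : 0 < t) {A L : Mat n} {β : Vec n}
    (h1 : L * A * Lᵀ = 1) (h2 : t • (1 : Mat n) = Lᵀ * Matrix.diagonal β * L)
    (hβ : ∀ i, 0 < β i) (hsm : (x0 • (1 : Mat n) - t • A).PosSemidef) :
    ∑ i, β i = t * A.trace ∧ ∀ i, β i ≤ x0 := by
  -- `t = L Lᵀ diag β`
  have hLu : IsUnit L := by
    have : L * (A * Lᵀ) = 1 := by rw [← Matrix.mul_assoc]; exact h1
    exact ⟨⟨L, A * Lᵀ, this, mul_eq_one_comm.1 this⟩, rfl⟩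
  have hLL : L * Lᵀ * Matrix.diagonal β = t • (1 : Mat n) := by
    have e1 : L * (t • (1 : Mat n)) * (A * Lᵀ) = L * (Lᵀ * Matrix.diagonal β * L) * (A * Lᵀ) := by
      rw [h2]
    have e2 : L * (t • (1 : Mat n)) * (A * Lᵀ) = t • (L * A * Lᵀ) := by
      rw [Matrix.mul_smul, Matrix.mul_one, Matrix.smul_mul]
      simp only [Matrix.mul_assoc]
    have e3 : L * (Lᵀ * Matrix.diagonal β * L) * (A * Lᵀ) =
        L * Lᵀ * Matrix.diagonal β * (L * A * Lᵀ) := by simp only [Matrix.mul_assoc]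
    rw [e2, e3, h1, Matrix.mul_one] at e1
    exact e1.symm
  have hdiag : ∀ i, (L * Lᵀ) i i * β i = t := by
    intro i
    have := congrFun (congrFun hLL i) i
    rw [Matrix.mul_diagonal, Matrix.smul_apply, Matrix.one_apply_eq, smul_eq_mul, mul_one] at this
    exact this
  constructor
  · have e1 : ∑ i, β i = (Matrix.diagonal β * (L * A * Lᵀ)).trace := by
      rw [h1, Matrix.mul_one, Matrix.trace_diagonal]
    have e2 : (Matrix.diagonal β * (L * A * Lᵀ)).trace = ((Lᵀ * Matrix.diagonal β * L) * A).trace := by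
      have e3 : Matrix.diagonal β * (L * A * Lᵀ) = (Matrix.diagonal β * (L * A)) * Lᵀ := by
        simp only [Matrix.mul_assoc]
      rw [e3, Matrix.trace_mul_comm]
      simp only [Matrix.mul_assoc]
    rw [e1, e2, ← h2, Matrix.smul_mul, Matrix.one_mul, Matrix.trace_smul, smul_eq_mul]
  · intro i
    have h3 := hsm.mul_mul_conjTranspose_same L
    rw [Matrix.conjTranspose_eq_transpose_of_trivial] at h3
    have h4 := h3.diag_nonneg (i := i)
    have e1 : L * (x0 • (1 : Mat n) - t • A) * Lᵀ = x0 • (L * Lᵀ) - t • (1 : Mat n) := by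
      rw [Matrix.mul_sub, Matrix.sub_mul, Matrix.mul_smul, Matrix.mul_one, Matrix.smul_mul,
        Matrix.mul_smul, Matrix.smul_mul, h1]
    rw [e1, Matrix.sub_apply, Matrix.smul_apply, Matrix.smul_apply, Matrix.one_apply_eq,
      smul_eq_mul, smul_eq_mul, mul_one] at h4
    have h5 := hdiag i
    have h6 := hβ i
    have h7 : t * β i ≤ x0 * t := by
      calc t * β i ≤ (x0 * (L * Lᵀ) i i) * β i := by
            refine mul_le_mul_of_nonneg_right ?_ h6.le
            linarith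
        _ = x0 * ((L * Lᵀ) i i * β i) := by ring
        _ = x0 * t := by rw [h5]
    nlinarith

/-! ### the statements -/

theorem T3_eq (w : (Fin n → ℝ) → ℝ) (B : Mat n) (c : Vec n) :
    T3 (fun x => tilt B c x * w x) = Fr.TF w B c := by
  funext i j k
  unfold T3 Fr.TF Fr.c3 Fr.c2
  have h : ∀ i : Fin n, Fr.co i = fun x : Fin n → ℝ => x i := fun i => rfl
  simp only [Ef_eq_Ev, h]
  ring

/-- **(E0-P)** -/
theorem smallP {F : Profile} (hX : StX F)
    (hp : ∀ δ : ℝ, 0 < δ → ∃ x0 : ℝ, 0 < x0 ∧ ∀ x, 0 < x → x ≤ x0 →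
      F.p x ^ 3 ≤ 4 * (1 - (2 - δ) * x) ^ 3) : SmallP := by
  intro n δ hδ
  obtain ⟨x1, hx1, h1⟩ := hp δ hδ
  refine ⟨min x1 (1 / 2), lt_min hx1 (by norm_num), ?_⟩
  intro K hK hs hi ε m hε hm t ht c hsm P hP
  rw [covF_eq_AF, X.Top.nice_eq_wK] at hsm
  rw [covF_eq_AF, T3_eq, X.Top.nice_eq_wK]
  have hB : (t • (1 : Mat n)).PosDef := PosDef.one.smul ht
  have hPI : PIneq F (Fr.AF (Fr.wK K ε m) (t • (1 : Mat n)) c) (t • (1 : Mat n))
      (Fr.TF (Fr.wK K ε m) (t • (1 : Mat n)) c) :=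
    hX n (Fr.tiltData hK hs hi hε hm) (t • (1 : Mat n)) hB c
  have hA : (Fr.AF (Fr.wK K ε m) (t • (1 : Mat n)) c).PosDef :=
    (Fr.tiltData hK hs hi hε hm).posA (t • (1 : Mat n)) hB.posSemidef c
  exact smallP_core (x0 := min x1 (1 / 2)) ((min_le_right _ _).trans_lt (by norm_num))
    (fun x hx hx' => h1 x hx (hx'.trans (min_le_left _ _))) ht hA hPI hsm hP

/-- **(E0-Z)** -/
theorem smallZ {F : Profile} (W : WProfile F) (hX : StX F)
    (hw : ∀ δ : ℝ, 0 < δ → ∃ x0 : ℝ, 0 < x0 ∧ ∀ x, 0 < x → x ≤ x0 →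
      (1 - δ) * x ≤ W.w x) : SmallZ := by
  intro n δ hδ
  obtain ⟨x1, hx1, h1⟩ := hw δ hδ
  refine ⟨x1, hx1, ?_⟩
  intro K hK hs hi ε m hε hm t ht c hsm
  have hB : (t • (1 : Mat n)).PosDef := PosDef.one.smul ht
  rw [DD_eq (nice_pos hi hε m)]
  rw [covF_eq_AF] at hsm ⊢
  rw [X.Top.nice_eq_wK] at hsm ⊢
  have hA : (Fr.AF (Fr.wK K ε m) (t • (1 : Mat n)) c).PosDef :=
    (Fr.tiltData hK hs hi hε hm).posA (t • (1 : Mat n)) hB.posSemidef c
  obtain ⟨L, β, hF⟩ := exists_Fr hA hB.isHermitian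
  have hβ : ∀ i, β i ∈ Ioo (0 : ℝ) 1 :=
    Vale.Agent.P254.L.Fr.beta_mem (D := Fr.tiltData hK hs hi hε hm) hB c hF
  have h2 := ent_ge W (Fr.entData hK hs hi hε hm) (hX n (Fr.tiltData hK hs hi hε hm)) hB c hF
  obtain ⟨h3, h4⟩ := frame_facts ht hF.hA hF.hB (fun i => (hβ i).1) hsm
  have h5 : ∑ i, (1 - δ) * β i ≤ ∑ i, W.w (β i) :=
    Finset.sum_le_sum fun i _ => h1 _ (hβ i).1 (h4 i)
  rw [← Finset.mul_sum, h3] at h5
  have h6 : (n : ℝ) + 1 / 2 * Real.log (Fr.AF (Fr.wK K ε m) (t • (1 : Mat n)) c).det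
      + ∑ i, W.w (β i) ≤ Fr.EntF (Fr.wK K ε m) (t • (1 : Mat n)) c := h2
  linarith

end Vale.Agent.P254.Z325
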