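import Vale.Agent.P254.Bdl.B3
import Vale.Agent.P254.Bdl.B18
import Vale.Agent.P254.Bdl.B19

/-!
P254, block (Z), final assembly (helper325): for the sharp profile, the inequality `(P)` implies
`n + ½ log det A + ∑ w (β_i) ≤ Ent`.
-/

namespace Vale.Agent.P254.Z325

open Matrix Filter Topology Set
open Vale.Agent.P254.L
open Vale.Agent.P254.Z546 (e1 e2 dd1_e_nonneg contact_ineq)

variable {n : ℕ}

/-- `c = 1/4 - x² w''/2` -/
noncomputable def cc {F : Profile} (W : WProfile F) (x : ℝ) : ℝ := 1 / 4 - x ^ 2 * W.w2 x / 2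

/-- `min (√c) R` -/
noncomputable def rho {F : Profile} (W : WProfile F) (R x : ℝ) : ℝ := min (Real.sqrt (cc W x)) R

section
variable {F : Profile} (W : WProfile F)

theorem cc_pos {x : ℝ} (hx : x ∈ Ioo (0 : ℝ) 1) : 0 < cc W x := W.cmin_pos.trans_le (W.c_ge x hx)

theorem cmax_pos : 0 < W.cmax := by
  have h : (1 / 2 : ℝ) ∈ Ioo (0 : ℝ) 1 := ⟨by norm_num, by norm_num⟩
  have h1 := W.c_le _ h
  have h2 := cc_pos W h
  unfold cc at h2
  nlinarith

theorem rho_ge {R x : ℝ} (hx : x ∈ Ioo (0 : ℝ) 1) (hR : Real.sqrt W.cmin ≤ R) :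
    Real.sqrt W.cmin ≤ rho W R x :=
  le_min (Real.sqrt_le_sqrt (W.c_ge x hx)) hR

theorem rho_pos {R x : ℝ} (hx : x ∈ Ioo (0 : ℝ) 1) (hR : Real.sqrt W.cmin ≤ R) : 0 < rho W R x :=
  (Real.sqrt_pos.2 W.cmin_pos).trans_le (rho_ge W hx hR)

theorem rho_sq_le {R x : ℝ} (hx : x ∈ Ioo (0 : ℝ) 1) (hR : Real.sqrt W.cmin ≤ R) :
    rho W R x ^ 2 ≤ cc W x := by
  have h1 : rho W R x ≤ Real.sqrt (cc W x) := min_le_left _ _
  have h2 := rho_pos W hx hR
  calc rho W R x ^ 2 ≤ Real.sqrt (cc W x) ^ 2 := pow_le_pow_left₀ h2.le h1 2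
    _ = cc W x := Real.sq_sqrt (cc_pos W hx).le

theorem dd1_symm (f f1 : ℝ → ℝ) (x y : ℝ) : dd1 f f1 x y = dd1 f f1 y x := by
  unfold dd1
  by_cases h : x = y
  · subst h; rfl
  · rw [if_neg h, if_neg (Ne.symm h)]
    have h1 : x - y ≠ 0 := sub_ne_zero.2 h
    have h2 : y - x ≠ 0 := sub_ne_zero.2 (Ne.symm h)
    field_simp
    ring

/-- the divided difference of `1 / (2 √(1-x))` -/
theorem dd1_e_eq {x y : ℝ} (hx : x < 1) (hy : y < 1) :
    dd1 e1 e2 x y = 1 / (2 * (Real.sqrt (1 - x) * Real.sqrt (1 - y) *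
      (Real.sqrt (1 - x) + Real.sqrt (1 - y)))) := by
  have hs : 0 < Real.sqrt (1 - x) := Real.sqrt_pos.2 (by linarith)
  have ht : 0 < Real.sqrt (1 - y) := Real.sqrt_pos.2 (by linarith)
  have hs2 : Real.sqrt (1 - x) ^ 2 = 1 - x := Real.sq_sqrt (by linarith)
  have ht2 : Real.sqrt (1 - y) ^ 2 = 1 - y := Real.sq_sqrt (by linarith)
  unfold dd1
  by_cases h : x = y
  · subst h
    rw [if_pos rfl]
    unfold e2
    have h3 : (1 - x) * Real.sqrt (1 - x) = Real.sqrt (1 - x) ^ 3 := by rw [← hs2]; ring_nf; simp; ring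
    rw [h3]
    generalize Real.sqrt (1 - x) = s at *
    field_simp
    norm_num
  · rw [if_neg h]
    unfold e1
    have e : x - y = Real.sqrt (1 - y) ^ 2 - Real.sqrt (1 - x) ^ 2 := by rw [hs2, ht2]; ring
    have hne : Real.sqrt (1 - y) - Real.sqrt (1 - x) ≠ 0 := by
      intro h0
      apply h
      have : Real.sqrt (1 - y) = Real.sqrt (1 - x) := by linarith
      rw [this] at e
      linarith
    rw [e]
    have hne' : Real.sqrt (1 - y) ^ 2 - Real.sqrt (1 - x) ^ 2 ≠ 0 := by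
      have : Real.sqrt (1 - y) ^ 2 - Real.sqrt (1 - x) ^ 2 =
        (Real.sqrt (1 - y) - Real.sqrt (1 - x)) * (Real.sqrt (1 - y) + Real.sqrt (1 - x)) := by ring
      rw [this]
      exact mul_ne_zero hne (by positivity)
    generalize Real.sqrt (1 - x) = s at *
    generalize Real.sqrt (1 - y) = t at *
    field_simp
    ring

/-- `y` away from `1` -/
theorem far {τ : ℝ} (hτ0 : 0 < τ) {x y : ℝ} (hx : x ∈ Ioo (0 : ℝ) 1) (hy : y ∈ Ioo (0 : ℝ) 1)
    (hxy : 3 / 4 * τ ^ 2 ≤ x - y) :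
    1 / 4 - x * y * dd1 W.w1 W.w2 x y / 2 ≤ 1 / 4 + W.w1max / τ ^ 2 := by
  have hw1m : 0 < W.w1max := (W.w1_pos _ hx).trans_le (W.w1_le _ hx)
  have hxy0 : 0 < x - y := lt_of_lt_of_le (by positivity) hxy
  have hne : x ≠ y := by intro h; rw [h, sub_self] at hxy0; exact lt_irrefl _ hxy0
  have hd : dd1 W.w1 W.w2 x y = (W.w1 x - W.w1 y) / (x - y) := by
    unfold dd1; rw [if_neg hne]
  rw [hd]
  have h2 : -(W.w1max / (x - y)) ≤ (W.w1 x - W.w1 y) / (x - y) := by
    rw [← neg_div]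
    refine div_le_div_of_nonneg_right ?_ hxy0.le
    linarith [W.w1_pos x hx, W.w1_le y hy]
  have h3 : W.w1max / (x - y) ≤ W.w1max / (3 / 4 * τ ^ 2) :=
    div_le_div_of_nonneg_left hw1m.le (by positivity) hxy
  have h4 : W.w1max / (3 / 4 * τ ^ 2) = 4 / 3 * (W.w1max / τ ^ 2) := by
    field_simp
  have h5 : 0 < x * y := mul_pos hx.1 hy.1
  have h6 : x * y ≤ 1 := by
    calc x * y ≤ 1 * 1 := mul_le_mul hx.2.le hy.2.le hy.1.le zero_le_one
      _ = 1 := one_mul 1
  have h7 : 0 ≤ W.w1max / τ ^ 2 := by positivity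
  have h8 : -(4 / 3 * (W.w1max / τ ^ 2)) ≤ (W.w1 x - W.w1 y) / (x - y) := by linarith
  generalize (W.w1 x - W.w1 y) / (x - y) = d at *
  generalize W.w1max / τ ^ 2 = m at *
  generalize x * y = z at *
  have h9 : -(4 / 3 * m) ≤ z * d := by
    rcases le_or_gt 0 d with hd | hd
    · have : 0 ≤ z * d := mul_nonneg h5.le hd
      linarith
    · have : 1 * d ≤ z * d := mul_le_mul_of_nonpos_right h6 hd.le
      linarith
  linarith

/-- one ordering of the key estimate -/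
theorem key1 {ε : ℝ} (hε : 0 < ε) : ∃ R0 : ℝ, ∀ R : ℝ, R0 ≤ R →
    ∀ x ∈ Ioo (0 : ℝ) 1, ∀ y ∈ Ioo (0 : ℝ) 1, R < Real.sqrt (cc W x) →
      1 / 4 - x * y * dd1 W.w1 W.w2 x y / 2 - ε / 2 * (x * y * dd1 e1 e2 x y)
        ≤ rho W R x * rho W R y := by
  have hcm := cmax_pos W
  have hc0 := W.cmin_pos
  set sc := Real.sqrt W.cmin with hsc
  have hsc0 : 0 < sc := Real.sqrt_pos.2 hc0
  set τ : ℝ := min (1 / 2) (ε / (32 * W.cmax)) with hτ
  have hτ0 : 0 < τ := by
    rw [hτ]; exact lt_min (by norm_num) (by positivity)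
  have hτ1 : τ ≤ 1 / 2 := min_le_left _ _
  have hτ2 : τ ≤ ε / (32 * W.cmax) := min_le_right _ _
  have hτ3 : 32 * W.cmax * τ ≤ ε := by
    rw [le_div_iff₀ (by positivity)] at hτ2
    linarith
  have hw1m : 0 < W.w1max := by
    have h : (1 / 2 : ℝ) ∈ Ioo (0 : ℝ) 1 := ⟨by norm_num, by norm_num⟩
    exact (W.w1_pos _ h).trans_le (W.w1_le _ h)
  refine ⟨max sc (max (2 * Real.sqrt W.cmax / τ) ((1 / 4 + W.w1max / τ ^ 2) / sc)),
    fun R hR x hx y hy hlt => ?_⟩
  have hR1 : sc ≤ R := (le_max_left _ _).trans hR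
  have hR2 : 2 * Real.sqrt W.cmax / τ ≤ R := ((le_max_left _ _).trans (le_max_right _ _)).trans hR
  have hR3 : (1 / 4 + W.w1max / τ ^ 2) / sc ≤ R :=
    ((le_max_right _ _).trans (le_max_right _ _)).trans hR
  have hR0 : 0 < R := hsc0.trans_le hR1
  have hxr : rho W R x = R := min_eq_right hlt.le
  have hs : 0 < Real.sqrt (1 - x) := Real.sqrt_pos.2 (by linarith [hx.2])
  have ht : 0 < Real.sqrt (1 - y) := Real.sqrt_pos.2 (by linarith [hy.2])
  have hs2 : Real.sqrt (1 - x) ^ 2 = 1 - x := Real.sq_sqrt (by linarith [hx.2])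
  have ht2 : Real.sqrt (1 - y) ^ 2 = 1 - y := Real.sq_sqrt (by linarith [hy.2])
  -- bounds of `√c`
  have hcb : ∀ z ∈ Ioo (0 : ℝ) 1, Real.sqrt (cc W z) * Real.sqrt (1 - z) ≤ Real.sqrt W.cmax := by
    intro z hz
    rw [← Real.sqrt_mul (cc_pos W hz).le]
    exact Real.sqrt_le_sqrt (W.c_le z hz)
  have hsm : Real.sqrt (1 - x) ≤ τ / 2 := by
    have h1 := hcb x hx
    have h2 : R * Real.sqrt (1 - x) ≤ Real.sqrt W.cmax :=
      (mul_le_mul_of_nonneg_right hlt.le hs.le).trans h1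
    have h3 : 2 * Real.sqrt W.cmax ≤ R * τ := by rwa [div_le_iff₀ hτ0] at hR2
    by_contra hcon
    push Not at hcon
    have h4 : R * (τ / 2) < R * Real.sqrt (1 - x) := mul_lt_mul_of_pos_left hcon hR0
    nlinarith [Real.sqrt_nonneg W.cmax]
  have hry : 0 < rho W R y := rho_pos W hy hR1
  rcases le_or_gt (Real.sqrt (1 - y)) τ with hty | hty
  · -- both close to 1
    have h1 : 1 / 4 - x * y * dd1 W.w1 W.w2 x y / 2 ≤
        W.cmax / (Real.sqrt (1 - x) * Real.sqrt (1 - y)) := by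
      refine (W.cij x hx y hy).trans ?_
      rw [le_div_iff₀ (by positivity)]
      have h2 := hcb x hx
      have h3 := hcb y hy
      calc Real.sqrt (1 / 4 - x ^ 2 * W.w2 x / 2) * Real.sqrt (1 / 4 - y ^ 2 * W.w2 y / 2) *
            (Real.sqrt (1 - x) * Real.sqrt (1 - y))
          = (Real.sqrt (cc W x) * Real.sqrt (1 - x)) * (Real.sqrt (cc W y) * Real.sqrt (1 - y)) := by
            unfold cc; ring
        _ ≤ Real.sqrt W.cmax * Real.sqrt W.cmax := mul_le_mul h2 h3 (by positivity) (by positivity)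
        _ = W.cmax := Real.mul_self_sqrt hcm.le
    have h2 : W.cmax / (Real.sqrt (1 - x) * Real.sqrt (1 - y)) ≤
        ε / 2 * (x * y * dd1 e1 e2 x y) := by
      rw [dd1_e_eq hx.2 hy.2]
      have hx4 : 3 / 4 ≤ x := by nlinarith
      have hy4 : 3 / 4 ≤ y := by nlinarith
      have hxy : 1 / 2 ≤ x * y := by nlinarith
      have hst : Real.sqrt (1 - x) + Real.sqrt (1 - y) ≤ 2 * τ := by linarith
      generalize Real.sqrt (1 - x) = s at *
      generalize Real.sqrt (1 - y) = t at *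
      have e : ε / 2 * (x * y * (1 / (2 * (s * t * (s + t))))) =
          (ε * (x * y) / (4 * (s + t))) / (s * t) := by
        field_simp
        norm_num
      rw [e]
      refine div_le_div_of_nonneg_right ?_ (by positivity)
      rw [le_div_iff₀ (by positivity)]
      have h5 : W.cmax * (4 * (s + t)) ≤ W.cmax * (4 * (2 * τ)) := by gcongr
      have h6 : ε * (1 / 2) ≤ ε * (x * y) := by gcongr
      nlinarith
    have h3 : 0 ≤ rho W R x * rho W R y := by rw [hxr]; positivity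
    linarith
  · -- `y` away from 1
    have hxy : 3 / 4 * τ ^ 2 ≤ x - y := by
      have h1 : x - y = Real.sqrt (1 - y) ^ 2 - Real.sqrt (1 - x) ^ 2 := by rw [hs2, ht2]; ring
      rw [h1]
      have h2 : τ ^ 2 ≤ Real.sqrt (1 - y) ^ 2 := pow_le_pow_left₀ hτ0.le hty.le 2
      have h3 : Real.sqrt (1 - x) ^ 2 ≤ (τ / 2) ^ 2 := pow_le_pow_left₀ hs.le hsm 2
      nlinarith
    have h1 := far W hτ0 hx hy hxy
    have h2 : 0 ≤ ε / 2 * (x * y * dd1 e1 e2 x y) := by
      have h3 := dd1_e_nonneg hx.2 hy.2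
      have h4 := hx.1
      have h5 := hy.1
      positivity
    have h3 : 1 / 4 + W.w1max / τ ^ 2 ≤ rho W R x * rho W R y := by
      rw [hxr]
      have h4 : 1 / 4 + W.w1max / τ ^ 2 ≤ R * sc := by rwa [div_le_iff₀ hsc0] at hR3
      exact h4.trans (mul_le_mul_of_nonneg_left (rho_ge W hy hR1) hR0.le)
    linarith

/-- **key estimate**: truncation of the control -/
theorem key {ε : ℝ} (hε : 0 < ε) : ∃ R : ℝ, Real.sqrt W.cmin ≤ R ∧
    ∀ x ∈ Ioo (0 : ℝ) 1, ∀ y ∈ Ioo (0 : ℝ) 1,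
      1 / 4 - x * y * dd1 W.w1 W.w2 x y / 2 - ε / 2 * (x * y * dd1 e1 e2 x y)
        ≤ rho W R x * rho W R y := by
  obtain ⟨R0, h⟩ := key1 W hε
  refine ⟨max R0 (Real.sqrt W.cmin), le_max_right _ _, fun x hx y hy => ?_⟩
  set R := max R0 (Real.sqrt W.cmin) with hR
  by_cases h1 : R < Real.sqrt (cc W x)
  · exact h R (le_max_left _ _) x hx y hy h1
  by_cases h2 : R < Real.sqrt (cc W y)
  · have h3 := h R (le_max_left _ _) y hy x hx h2
    rw [dd1_symm, dd1_symm e1 e2, mul_comm y x, mul_comm (rho W R y)] at h3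
    exact h3
  · push Not at h1 h2
    have e3 : rho W R x = Real.sqrt (cc W x) := min_eq_left h1
    have e4 : rho W R y = Real.sqrt (cc W y) := min_eq_left h2
    rw [e3, e4]
    have h3 := W.cij x hx y hy
    have h4 : 0 ≤ ε / 2 * (x * y * dd1 e1 e2 x y) := by
      have h5 := dd1_e_nonneg hx.2 hy.2
      have h6 := hx.1
      have h7 := hy.1
      positivity
    unfold cc
    linarith

/-- `NN` of a diagonal matrix -/
theorem NN_diagonal (r : Vec n) (T : Ten n) :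
    NN (Matrix.diagonal r) T T = ∑ i, ∑ j, ∑ k, r i * r j * r k * T i j k ^ 2 := by
  unfold NN N3
  refine Finset.sum_congr rfl fun a _ => Finset.sum_congr rfl fun b _ =>
    Finset.sum_congr rfl fun c _ => ?_
  rw [Finset.sum_eq_single a, Finset.sum_eq_single b, Finset.sum_eq_single c]
  · simp only [Matrix.diagonal_apply_eq]; ring
  · intro c' _ hc'
    rw [Matrix.diagonal_apply_ne _ (Ne.symm hc')]; ring
  · intro h; exact absurd (Finset.mem_univ _) h
  · intro b' _ hb'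
    refine Finset.sum_eq_zero fun c' _ => ?_
    rw [Matrix.diagonal_apply_ne _ (Ne.symm hb')]; ring
  · intro h; exact absurd (Finset.mem_univ _) h
  · intro a' _ ha'
    refine Finset.sum_eq_zero fun b' _ => Finset.sum_eq_zero fun c' _ => ?_
    rw [Matrix.diagonal_apply_ne _ (Ne.symm ha')]; ring
  · intro h; exact absurd (Finset.mem_univ _) h

/-- the sum is negative -/
theorem sum_neg (hn : 0 < n) {ε : ℝ} (hε : 0 < ε) {R : ℝ} (hR : Real.sqrt W.cmin ≤ R)
    (hkey : ∀ x ∈ Ioo (0 : ℝ) 1, ∀ y ∈ Ioo (0 : ℝ) 1,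
      1 / 4 - x * y * dd1 W.w1 W.w2 x y / 2 - ε / 2 * (x * y * dd1 e1 e2 x y)
        ≤ rho W R x * rho W R y) {β : Vec n}
    (hβ : ∀ i, β i ∈ Ioo (0 : ℝ) 1) {T : Ten n}
    (hP : NN (Matrix.diagonal fun i => rho W R (β i)) T T ≤ ∑ i, (F.p (β i) * rho W R (β i)) ^ 3) :
    ∑ a : Fin n, rho W R (β a) * (∑ i, ∑ j, (1 / 2 * (1 / 2
        - β i * β j * dd1 W.w1 W.w2 (β i) (β j)
        - ε * (β i * β j * dd1 e1 e2 (β i) (β j)))) * T i j a ^ 2
      - (W.w1 (β a) + ε * e1 (β a)) * (1 - β a)) < 0 := by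
  have hr : ∀ i, 0 < rho W R (β i) := fun i => rho_pos W (hβ i) hR
  have h1 : ∀ a, (∑ i, ∑ j, (1 / 2 * (1 / 2
        - β i * β j * dd1 W.w1 W.w2 (β i) (β j)
        - ε * (β i * β j * dd1 e1 e2 (β i) (β j)))) * T i j a ^ 2)
      ≤ ∑ i, ∑ j, rho W R (β i) * rho W R (β j) * T i j a ^ 2 := by
    intro a
    refine Finset.sum_le_sum fun i _ => Finset.sum_le_sum fun j _ => ?_
    refine mul_le_mul_of_nonneg_right ?_ (sq_nonneg _)
    have h3 := hkey _ (hβ i) _ (hβ j)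
    linarith
  have h2 : ∑ a, rho W R (β a) * ∑ i, ∑ j, rho W R (β i) * rho W R (β j) * T i j a ^ 2
      ≤ ∑ a, rho W R (β a) * (W.w1 (β a) * (1 - β a)) := by
    have e : ∑ a, rho W R (β a) * ∑ i, ∑ j, rho W R (β i) * rho W R (β j) * T i j a ^ 2
        = NN (Matrix.diagonal fun i => rho W R (β i)) T T := by
      rw [NN_diagonal]
      simp only [Finset.mul_sum]
      rw [Finset.sum_comm]
      refine Finset.sum_congr rfl fun i _ => ?_
      rw [Finset.sum_comm]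
      refine Finset.sum_congr rfl fun j _ => Finset.sum_congr rfl fun k _ => ?_
      ring
    rw [e]
    refine hP.trans (Finset.sum_le_sum fun i _ => ?_)
    rw [W.ode _ (hβ i)]
    have h3 := rho_sq_le W (hβ i) hR
    unfold cc at h3
    have h4 := F.pos _ (hβ i)
    have h5 : 0 ≤ rho W R (β i) * F.p (β i) ^ 3 := by
      have := hr i
      positivity
    calc (F.p (β i) * rho W R (β i)) ^ 3
        = (rho W R (β i) * F.p (β i) ^ 3) * rho W R (β i) ^ 2 := by ring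
      _ ≤ (rho W R (β i) * F.p (β i) ^ 3) * (1 / 4 - β i ^ 2 * W.w2 (β i) / 2) :=
          mul_le_mul_of_nonneg_left h3 h5
      _ = _ := by ring
  have h3 : ∑ a : Fin n, rho W R (β a) * (∑ i, ∑ j, (1 / 2 * (1 / 2
        - β i * β j * dd1 W.w1 W.w2 (β i) (β j)
        - ε * (β i * β j * dd1 e1 e2 (β i) (β j)))) * T i j a ^ 2
      - (W.w1 (β a) + ε * e1 (β a)) * (1 - β a))
      ≤ ∑ a, -(rho W R (β a) * (ε * e1 (β a) * (1 - β a))) := by
    have h4 : ∑ a : Fin n, rho W R (β a) * (∑ i, ∑ j, (1 / 2 * (1 / 2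
        - β i * β j * dd1 W.w1 W.w2 (β i) (β j)
        - ε * (β i * β j * dd1 e1 e2 (β i) (β j)))) * T i j a ^ 2
      - (W.w1 (β a) + ε * e1 (β a)) * (1 - β a))
      ≤ ∑ a, (rho W R (β a) * (∑ i, ∑ j, rho W R (β i) * rho W R (β j) * T i j a ^ 2)
        - rho W R (β a) * (W.w1 (β a) * (1 - β a))
        - rho W R (β a) * (ε * e1 (β a) * (1 - β a))) := by
      refine Finset.sum_le_sum fun a _ => ?_
      have := mul_le_mul_of_nonneg_left (h1 a) (hr a).le
      calc _ = rho W R (β a) * (∑ i, ∑ j, (1 / 2 * (1 / 2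
            - β i * β j * dd1 W.w1 W.w2 (β i) (β j)
            - ε * (β i * β j * dd1 e1 e2 (β i) (β j)))) * T i j a ^ 2)
            - rho W R (β a) * (W.w1 (β a) * (1 - β a))
            - rho W R (β a) * (ε * e1 (β a) * (1 - β a)) := by ring
        _ ≤ _ := by linarith
    refine h4.trans ?_
    rw [Finset.sum_sub_distrib, Finset.sum_sub_distrib, Finset.sum_neg_distrib]
    linarith
  refine h3.trans_lt ?_
  have : Nonempty (Fin n) := ⟨⟨0, hn⟩⟩
  refine Finset.sum_neg (fun a _ => ?_) Finset.univ_nonempty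
  have h5 := St625.e1_mul' (hβ a).2
  have h6 : 0 < Real.sqrt (1 - β a) := Real.sqrt_pos.2 (by linarith [(hβ a).2])
  have h7 : ε * e1 (β a) * (1 - β a) = ε * (Real.sqrt (1 - β a) / 2) := by
    rw [← h5]; ring
  rw [h7]
  have := hr a
  have h8 : 0 < rho W R (β a) * (ε * (Real.sqrt (1 - β a) / 2)) := by positivity
  linarith

end

/-- limit form of `GG ≥ -η` -/
theorem ent_of_GG' {F : Profile} (W : WProfile F) {D : TiltData n} (E : EntData D) {B : Mat n}
    (hB : B.PosDef) (c : Vec n)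
    (h : ∀ ε : ℝ, 0 < ε → ∀ η : ℝ, 0 < η → -η ≤ GG E W ε B c) {L : Mat n} {β : Vec n}
    (hF : Fr (D.A B c) B L β) :
    (n : ℝ) + 1 / 2 * Real.log (D.A B c).det + ∑ i, W.w (β i) ≤ E.Ent B c := by
  have hβ : ∀ i, β i ∈ Ioo (0 : ℝ) 1 := hF.beta_mem hB c
  have hs : ∑ i, Real.sqrt (1 - β i) ≤ n := by
    have : ∑ i, Real.sqrt (1 - β i) ≤ ∑ _i : Fin n, (1 : ℝ) := by
      refine Finset.sum_le_sum fun i _ => ?_
      rw [Real.sqrt_le_one]
      linarith [(hβ i).1]
    simpa using this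
  refine le_of_forall_pos_le_add fun δ hδ => ?_
  have h1 := h (δ / (2 * (n + 1))) (by positivity) (δ / 2) (by positivity)
  rw [GG_eq E W hB c hF] at h1
  have h2 : δ / (2 * (n + 1)) * ∑ i, Real.sqrt (1 - β i) ≤ δ / 2 := by
    calc δ / (2 * (n + 1)) * ∑ i, Real.sqrt (1 - β i) ≤ δ / (2 * (n + 1)) * n :=
          mul_le_mul_of_nonneg_left hs (by positivity)
      _ ≤ δ / (2 * (n + 1)) * (n + 1) := by
          refine mul_le_mul_of_nonneg_left (by linarith) (by positivity)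
      _ = δ / 2 := by field_simp
  linarith

/-- **the Z-step**: `(P)` for all tilts gives `n + ½ log det A + ∑ w (β_i) ≤ Ent` -/
theorem ent_ge {F : Profile} (W : WProfile F) {D : TiltData n} (E : EntData D)
    (hP : ∀ B : Mat n, B.PosDef → ∀ c : Vec n, PIneq F (D.A B c) B (D.T B c))
    {B : Mat n} (hB : B.PosDef) (c : Vec n) {L : Mat n} {β : Vec n}
    (hF : Fr (D.A B c) B L β) :
    (n : ℝ) + 1 / 2 * Real.log (D.A B c).det + ∑ i, W.w (β i) ≤ E.Ent B c := by
  refine ent_of_GG' W E hB c (fun ε hε η hη => ?_) hF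
  rcases Nat.eq_zero_or_pos n with hn | hn
  · subst hn
    have h := GG_lower E W hB c (ε := ε) hε.le
    simp only [Matrix.det_isEmpty, Real.log_one, mul_zero, sub_zero, neg_zero] at h
    linarith
  by_contra hlt
  push Not at hlt
  obtain ⟨R, hR, hkey⟩ := key W hε
  have hsc : 0 < Real.sqrt W.cmin := Real.sqrt_pos.2 W.cmin_pos
  obtain ⟨B', c', hB', -, hc', hf'⟩ :=
    exists_min E W hε.le hη (q0 := Real.sqrt W.cmin) (Λ := R) hsc hR hB hlt
  obtain ⟨L', β', hF'⟩ := exists_Fr (D.posA B' hB'.posSemidef c') hB'.isHermitian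
  have hβ : ∀ i, β' i ∈ Ioo (0 : ℝ) 1 := hF'.beta_mem hB' c'
  set r : Vec n := fun i => rho W R (β' i) with hr
  have hr0 : ∀ i, 0 ≤ r i := fun i => (rho_pos W (hβ i) hR).le
  have hsm : ∀ s : ℝ, s • (D.A B' c')⁻¹ = L'ᵀ * Matrix.diagonal (fun _ => s) * L' := by
    intro s
    rw [hF'.inv_A, ← Matrix.smul_one_eq_diagonal, Matrix.mul_smul, Matrix.mul_one,
      Matrix.smul_mul]
  have hf'' := hf' (L'ᵀ * Matrix.diagonal r * L') (by
      rw [hsm, ← Matrix.sub_mul, ← Matrix.mul_sub, Matrix.diagonal_sub, psd_conj_iff hF'.isUnit,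
        Matrix.posSemidef_diagonal_iff]
      intro i
      exact sub_nonneg.2 (rho_ge W (hβ i) hR)) (by
      rw [hsm, ← Matrix.sub_mul, ← Matrix.mul_sub, Matrix.diagonal_sub, psd_conj_iff hF'.isUnit,
        Matrix.posSemidef_diagonal_iff]
      intro i
      exact sub_nonneg.2 (min_le_right _ _))
  have h1 := contact_ineq E W hB' hF' (r := r) hr0 hc' hf''
  have h2 := hP B' hB' c' L' (fun _ => 1) β' hF'.isUnit (by rw [hF'.hA, Matrix.diagonal_one])
    hF'.hB (Matrix.diagonal r) ((Matrix.posSemidef_diagonal_iff).2 hr0)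
  have e : (((Matrix.diagonal fun i => (1 : ℝ) * F.p (1 * β' i)) * Matrix.diagonal r) ^ 3).trace
      = ∑ i, (F.p (β' i) * rho W R (β' i)) ^ 3 := by
    rw [Matrix.diagonal_mul_diagonal, Matrix.diagonal_pow, Matrix.trace_diagonal]
    refine Finset.sum_congr rfl fun i _ => ?_
    simp only [Pi.pow_apply, one_mul, hr]
  rw [e] at h2
  exact absurd h1 (not_le.2 (sum_neg W hn hε hR hkey hβ h2))

/-- `StX` and the profile of `w` give `StZ` -/
theorem stZ {F : Profile} (W : WProfile F) (hX : StX F) : StZ := by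
  intro n D E B hB c
  obtain ⟨L, β, hF⟩ := exists_Fr (D.posA B hB.posSemidef c) hB.isHermitian
  have h := ent_ge W E (hX n D) hB c hF
  have hβ : ∀ i, β i ∈ Ioo (0 : ℝ) 1 := hF.beta_mem hB c
  have h2 : 0 ≤ ∑ i, W.w (β i) := Finset.sum_nonneg fun i _ => W.w_nonneg _ (hβ i)
  linarith

end Vale.Agent.P254.Z325
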